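import Vale.Agent.P159.T1.D.H226.Fld

/-!
The tilt field `Bf Y V q (Γ (· - log t))` is a nice family, with limit `c(z) ∇ Γ(log |z|)`.
-/

open Filter Topology MeasureTheory

namespace Vale.Agent.P159.T1.D

open Vale.Agent.P159.T1.H407 (fl riemann)

/-- logarithm of the distance from the origin -/
noncomputable def lz (z : ℝ × ℝ) : ℝ := Real.log (Real.sqrt (z.1 ^ 2 + z.2 ^ 2))

lemma lz_eq (z : ℝ × ℝ) : lz z = Real.log (z.1 ^ 2 + z.2 ^ 2) / 2 := by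
  unfold lz
  rw [Real.log_sqrt (by positivity)]

lemma sq_pos_of_ne {z : ℝ × ℝ} (hz : z ≠ 0) : 0 < z.1 ^ 2 + z.2 ^ 2 := by
  rcases eq_or_ne z.1 0 with h | h
  · have h2 : z.2 ≠ 0 := fun h2 => hz (Prod.ext h h2)
    positivity
  · positivity

lemma lz_le_iff {z : ℝ × ℝ} (hz : z ≠ 0) {a : ℝ} :
    lz z ≤ a ↔ Real.sqrt (z.1 ^ 2 + z.2 ^ 2) ≤ Real.exp a := by
  have h := Real.sqrt_pos.2 (sq_pos_of_ne hz)
  unfold lz
  rw [Real.log_le_iff_le_exp h]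

lemma hasFDerivAt_lz {z : ℝ × ℝ} (hz : z ≠ 0) :
    HasFDerivAt lz ((z.1 ^ 2 + z.2 ^ 2)⁻¹ • (z.1 • ContinuousLinearMap.fst ℝ ℝ ℝ +
      z.2 • ContinuousLinearMap.snd ℝ ℝ ℝ)) z := by
  have h0 := sq_pos_of_ne hz
  have h1 : HasFDerivAt (fun z : ℝ × ℝ => z.1 ^ 2 + z.2 ^ 2)
      ((2 * z.1) • ContinuousLinearMap.fst ℝ ℝ ℝ +
        (2 * z.2) • ContinuousLinearMap.snd ℝ ℝ ℝ) z := by
    have h2 : HasFDerivAt (fun z : ℝ × ℝ => z.1 ^ 2 + z.2 ^ 2) _ z :=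
      ((hasFDerivAt_fst (𝕜 := ℝ) (p := z)).pow 2).add
      ((hasFDerivAt_snd (𝕜 := ℝ) (p := z)).pow 2)
    refine h2.congr_fderiv ?_
    ext <;> simp
  have h2 := (h1.log h0.ne').const_mul (1 / 2 : ℝ)
  have e : lz = fun z : ℝ × ℝ => (1 / 2 : ℝ) * Real.log (z.1 ^ 2 + z.2 ^ 2) := by
    funext z
    rw [lz_eq]
    ring
  rw [e]
  refine h2.congr_fderiv ?_
  ext
  · simp
    ring
  · simp
    ring

lemma contDiffAt_lz {z : ℝ × ℝ} (hz : z ≠ 0) {n : ℕ∞} : ContDiffAt ℝ n lz z := by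
  have e : lz = fun z : ℝ × ℝ => Real.log (z.1 ^ 2 + z.2 ^ 2) / 2 := funext lz_eq
  rw [e]
  have h1 : ContDiffAt ℝ n (fun z : ℝ × ℝ => z.1 ^ 2 + z.2 ^ 2) z :=
    ((contDiff_fst.pow 2).add (contDiff_snd.pow 2)).contDiffAt
  exact (h1.log (sq_pos_of_ne hz).ne').div_const 2

open Classical in
/-- the stream function at scale one -/
noncomputable def Gz (Γ : ℝ → ℝ) (a0 b0 : ℝ) (z : ℝ × ℝ) : ℝ :=
  (if z = 0 then Γ a0 else Γ (lz z)) - Γ b0

section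
variable {Γ : ℝ → ℝ} {a0 b0 : ℝ}

lemma Gz_ev {z : ℝ × ℝ} (hz : z ≠ 0) : Gz Γ a0 b0 =ᶠ[𝓝 z] fun z => Γ (lz z) - Γ b0 := by
  filter_upwards [isOpen_ne.mem_nhds hz] with y hy
  unfold Gz
  rw [if_neg hy]

lemma Gz_ev0 (ha : ∀ s ≤ a0, Γ s = Γ a0) :
    Gz Γ a0 b0 =ᶠ[𝓝 0] fun _ => Γ a0 - Γ b0 := by
  have h1 : ∀ᶠ z : ℝ × ℝ in 𝓝 0, z.1 ^ 2 + z.2 ^ 2 < Real.exp a0 ^ 2 := by
    have hc : Continuous fun z : ℝ × ℝ => z.1 ^ 2 + z.2 ^ 2 := by fun_prop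
    have h2 := hc.tendsto (0 : ℝ × ℝ)
    have h3 : ((0 : ℝ × ℝ).1 ^ 2 + (0 : ℝ × ℝ).2 ^ 2 : ℝ) < Real.exp a0 ^ 2 := by
      have := Real.exp_pos a0
      have h4 : (0 : ℝ) < Real.exp a0 ^ 2 := by positivity
      simpa using h4
    exact h2.eventually_lt_const h3
  filter_upwards [h1] with z hz
  unfold Gz
  split_ifs with h0
  · rfl
  · rw [ha]
    rw [lz_le_iff h0]
    exact Real.sqrt_le_iff.2 ⟨(Real.exp_pos a0).le, hz.le⟩

lemma contDiff_Gz (hΓ : ContDiff ℝ 1 Γ) (ha : ∀ s ≤ a0, Γ s = Γ a0) :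
    ContDiff ℝ 1 (Gz Γ a0 b0) := by
  rw [contDiff_iff_contDiffAt]
  intro z
  by_cases hz : z = 0
  · rw [hz]
    exact contDiffAt_const.congr_of_eventuallyEq (Gz_ev0 ha)
  · refine ContDiffAt.congr_of_eventuallyEq ?_ (Gz_ev hz)
    exact (hΓ.contDiffAt.comp z (contDiffAt_lz (n := 1) hz)).sub contDiffAt_const

lemma hasCompactSupport_Gz (hb : ∀ s, b0 ≤ s → Γ s = Γ b0) :
    HasCompactSupport (Gz Γ a0 b0) := by
  refine HasCompactSupport.of_support_subset_isCompact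
    (isCompact_closedBall (0 : ℝ × ℝ) (Real.exp b0)) fun z hz => ?_
  rw [Metric.mem_closedBall, dist_zero_right]
  by_cases h0 : z = 0
  · rw [h0, norm_zero]
    exact (Real.exp_pos _).le
  · rw [Function.mem_support] at hz
    unfold Gz at hz
    rw [if_neg h0] at hz
    have h1 : lz z ≤ b0 := by
      by_contra h
      push Not at h
      exact hz (by rw [hb _ h.le, sub_self])
    rw [lz_le_iff h0] at h1
    rw [Prod.norm_def, Real.norm_eq_abs, Real.norm_eq_abs]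
    refine max_le ?_ ?_
    · exact (Real.abs_le_sqrt (by nlinarith [sq_nonneg z.2])).trans h1
    · exact (Real.abs_le_sqrt (by nlinarith [sq_nonneg z.1])).trans h1

lemma fderiv_Gz (hΓ : ContDiff ℝ 1 Γ) {z : ℝ × ℝ} (hz : z ≠ 0) (v : ℝ × ℝ) :
    fderiv ℝ (Gz Γ a0 b0) z v =
      deriv Γ (lz z) * ((z.1 * v.1 + z.2 * v.2) / (z.1 ^ 2 + z.2 ^ 2)) := by
  rw [(Gz_ev hz).fderiv_eq]
  have h1 : HasFDerivAt (fun z => Γ (lz z) - Γ b0) (deriv Γ (lz z) •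
      ((z.1 ^ 2 + z.2 ^ 2)⁻¹ • (z.1 • ContinuousLinearMap.fst ℝ ℝ ℝ +
      z.2 • ContinuousLinearMap.snd ℝ ℝ ℝ))) z := by
    have h2 : HasDerivAt Γ (deriv Γ (lz z)) (lz z) :=
      (hΓ.differentiable (by norm_num) _).hasDerivAt
    exact (h2.comp_hasFDerivAt z (hasFDerivAt_lz hz)).sub_const _
  rw [h1.fderiv]
  change deriv Γ (lz z) * ((z.1 ^ 2 + z.2 ^ 2)⁻¹ * (z.1 * v.1 + z.2 * v.2)) = _
  ring

lemma gs_scale (ha : ∀ s ≤ a0, Γ s = Γ a0) {t : ℝ} (ht : 0 < t) (ht' : -Real.log t ≤ a0) :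
    gs (fun P => Γ (tau P - Real.log t)) =
      gs fun P : Z2 => Gz Γ a0 b0 (((P.1 : ℝ) + 0) / t, ((P.2 : ℝ) + 0) / t) := by
  have key : ∀ P : Z2, Gz Γ a0 b0 (((P.1 : ℝ) + 0) / t, ((P.2 : ℝ) + 0) / t) =
      Γ (tau P - Real.log t) - Γ b0 := by
    intro P
    unfold Gz
    rw [add_zero, add_zero]
    split_ifs with h0
    · rw [Prod.ext_iff] at h0
      obtain ⟨h1, h2⟩ := h0
      simp only [Prod.fst_zero, Prod.snd_zero, div_eq_zero_iff, ht.ne', or_false] at h1 h2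
      have e : tau P = 0 := by
        unfold tau
        rw [h1, h2]
        norm_num
      rw [e, zero_sub, ha _ ht']
    · congr 2
      have h1 : 0 < (P.1 : ℝ) ^ 2 + (P.2 : ℝ) ^ 2 := by
        have h2 := sq_pos_of_ne h0
        simp only [div_pow, ← add_div] at h2
        by_contra h3
        push Not at h3
        have h4 : ((P.1 : ℝ) ^ 2 + (P.2 : ℝ) ^ 2) / t ^ 2 ≤ 0 :=
          div_nonpos_of_nonpos_of_nonneg h3 (by positivity)
        linarith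
      unfold lz tau
      simp only [div_pow, ← add_div]
      rw [Real.sqrt_div h1.le, Real.sqrt_sq ht.le,
        Real.log_div (Real.sqrt_pos.2 h1).ne' ht.ne']
  funext e
  simp only [gs, key]
  ring

/-- **the tilt field is a nice family** -/
theorem nf_Bf {ι : Type*} {l : Filter ι} {t : ι → ℝ} (ht : Tendsto t l atTop) (Y V : ℝ) (q : ℕ)
    (hΓ : ContDiff ℝ 1 Γ) (ha : ∀ s ≤ a0, Γ s = Γ a0) (hb : ∀ s, b0 ≤ s → Γ s = Γ b0) :
    NF l t (fun i => Bf Y V q fun s => Γ (s - Real.log (t i)))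
      (fun d z => cz Y V q z *
        (deriv Γ (lz z) * ((if d then z.2 else z.1) / (z.1 ^ 2 + z.2 ^ 2)))) := by
  have h1 := nf_gs (l := l) (t := t) ht (contDiff_Gz (a0 := a0) (b0 := b0) hΓ ha)
    (hasCompactSupport_Gz hb) (w := fun _ => 0) (T := 0)
    (Eventually.of_forall fun _ => ⟨by simp, by simp⟩)
  have h2 := h1.mul (a := fun _ => cf Y V q) (c := cz Y V q) (M0 := |k1 Y V q| + |k2 Y V q|)
    (fun _ e => cf_abs_le Y V q e) (cf_lim ht Y V q)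
  have h3 : NF l t (fun i => Bf Y V q fun s => Γ (s - Real.log (t i)))
      (fun d z => cz Y V q z * (if d then fderiv ℝ (Gz Γ a0 b0) z (0, 1)
        else fderiv ℝ (Gz Γ a0 b0) z (1, 0))) := by
    refine h2.congr ?_
    have h4 : ∀ᶠ i in l, -Real.log (t i) ≤ a0 :=
      (tendsto_neg_atTop_atBot.comp (Real.tendsto_log_atTop.comp ht)).eventually
        (eventually_le_atBot a0)
    filter_upwards [ht.eventually (eventually_gt_atTop 0), h4] with i hi h5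
    funext e
    unfold Bf
    have h6 := congrFun (gs_scale (Γ := Γ) (a0 := a0) (b0 := b0) ha hi h5) e
    rw [h6]
    simp only [Prod.fst_zero, Prod.snd_zero]
  refine ⟨h3.bd, h3.supp, ?_⟩
  have h0 : ∀ᵐ z : ℝ × ℝ, z ≠ 0 := by
    filter_upwards [ae_line 0] with z hz h
    exact hz.1 (by rw [h]; rfl)
  filter_upwards [h3.lim, h0] with z hz h0 u d
  have h5 := hz u d
  cases d
  · simp only [Bool.false_eq_true, if_false] at h5 ⊢
    rw [fderiv_Gz hΓ h0] at h5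
    simpa only [mul_one, mul_zero, add_zero] using h5
  · simp only [if_true] at h5 ⊢
    rw [fderiv_Gz hΓ h0] at h5
    simpa only [mul_one, mul_zero, zero_add] using h5

end

end Vale.Agent.P159.T1.D
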