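import Vale.Agent.P159.T1.D.H770.RingDefs
import Vale.Agent.P159.T1.D.H226.NfBf

/-!
`StmtBG`: the lattice limit of the difference of the field of the charges and of the gradient of
the test function.
-/

open Filter Topology MeasureTheory

namespace Vale.Agent.P159.T1.D

open Vale.Agent.P159.T1.H407 (fl riemann)

lemma lz_eq_lr : lz = lr := rfl

/-- the cone in terms of the angle -/
lemma ar_lt_iff {q : ℕ} (hq : 1 ≤ q) (z : ℝ × ℝ) :
    ar z < -Real.pi + ang q ↔ z.2 < 0 ∧ (q : ℝ) * (-z.2) < -z.1 := by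
  have hq0 : (0 : ℝ) < q := by exact_mod_cast hq
  have hang := ang_lt q
  have hang0 := ang_pos hq
  have hpi := Real.pi_pos
  unfold ar
  by_cases h2 : z.2 < 0
  · set w : ℂ := ⟨-z.1, -z.2⟩ with hw
    have e : (⟨z.1, z.2⟩ : ℂ) = -w := by
      rw [hw]
      apply Complex.ext <;> simp
    have him : 0 < w.im := by
      rw [hw]
      simp only
      linarith
    rw [e, Complex.arg_neg_eq_arg_sub_pi_of_im_pos him]
    have h3 : w.arg - Real.pi < -Real.pi + ang q ↔ w.arg < ang q := by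
      constructor <;> intro h <;> linarith
    rw [h3]
    have h4 : (z.2 < 0 ∧ (q : ℝ) * (-z.2) < -z.1) ↔ (q : ℝ) * w.im < w.re :=
      ⟨fun h => h.2, fun h => ⟨h2, h⟩⟩
    rw [h4]
    by_cases hre : 0 < w.re
    · have h5 : |w.arg| < Real.pi / 2 := Complex.abs_arg_lt_pi_div_two_iff.2 (Or.inl hre)
      rw [abs_lt] at h5
      have h6 : w.arg = Real.arctan (w.im / w.re) := by
        rw [← Complex.tan_arg, Real.arctan_tan h5.1 h5.2]
      rw [h6]
      unfold ang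
      rw [Real.arctan_strictMono.lt_iff_lt, div_lt_div_iff₀ hre hq0]
      constructor <;> intro h <;> linarith
    · push Not at hre
      constructor
      · intro h
        exfalso
        have h5 : |w.arg| < Real.pi / 2 := by
          rw [abs_lt]
          have := Complex.arg_nonneg_iff.2 him.le
          constructor <;> linarith
        rcases Complex.abs_arg_lt_pi_div_two_iff.1 h5 with h6 | h6
        · linarith
        · rw [h6] at him
          simp at him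
      · intro h
        exfalso
        have : 0 < (q : ℝ) * w.im := mul_pos hq0 him
        linarith
  · constructor
    · intro h
      exfalso
      have : 0 ≤ (⟨z.1, z.2⟩ : ℂ).arg := Complex.arg_nonneg_iff.2 (not_lt.1 h2)
      linarith
    · intro h
      exact absurd h.1 h2

lemma cz_eq_cth {q : ℕ} (hq : 1 ≤ q) (Y V : ℝ) (z : ℝ × ℝ) :
    cz Y V q z = cth Y V q (ar z) := by
  unfold cz cth
  by_cases h : z.2 < 0 ∧ (q : ℝ) * (-z.2) < -z.1
  · rw [if_pos h, if_pos ((ar_lt_iff hq z).2 h)]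
    rfl
  · rw [if_neg h, if_neg (fun h' => h ((ar_lt_iff hq z).1 h'))]
    rfl

/-- the field minus the gradient of a test function -/
theorem nf_BG {ι : Type*} {l : Filter ι} {t : ι → ℝ} (ht : Tendsto t l atTop) (Y V : ℝ) {q : ℕ}
    (hq : 1 ≤ q) {Γ : ℝ → ℝ} {a0 b0 : ℝ} (hΓ : ContDiff ℝ 1 Γ) (ha : ∀ s ≤ a0, Γ s = Γ a0)
    (hb : ∀ s, b0 ≤ s → Γ s = Γ b0) {Φ : ℝ × ℝ → ℝ} (hΦ : ContDiff ℝ 1 Φ)
    (hc : HasCompactSupport Φ) {w : ι → ℝ × ℝ} {T : ℝ}
    (hw : ∀ᶠ i in l, |(w i).1| ≤ T ∧ |(w i).2| ≤ T) :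
    NF l t (fun i e => Bf Y V q (fun s => Γ (s - Real.log (t i))) e -
        dr (fun f => Φ (((f.1 : ℝ) + (w i).1) / t i, ((f.2 : ℝ) + (w i).2) / t i)) e)
      (fun d z => if d then cth Y V q (ar z) * fderiv ℝ (fun w => Γ (lr w)) z (0, 1) +
        fderiv ℝ Φ z (1, 0) else
        cth Y V q (ar z) * fderiv ℝ (fun w => Γ (lr w)) z (1, 0) - fderiv ℝ Φ z (0, 1)) := by
  have h1 := (nf_Bf ht Y V q hΓ ha hb).sub ht (nf_dr ht hΦ hc hw)
  refine ⟨h1.bd, h1.supp, ?_⟩
  have h0 : ∀ᵐ z : ℝ × ℝ, z ≠ 0 := by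
    filter_upwards [ae_line 0] with z hz h
    exact hz.1 (by rw [h]; rfl)
  filter_upwards [h1.lim, h0] with z hz h0 u d
  have h2 := hz u d
  have h3 : ∀ v : ℝ × ℝ, fderiv ℝ (fun w => Γ (lr w)) z v =
      deriv Γ (lr z) * ((z.1 * v.1 + z.2 * v.2) / (z.1 ^ 2 + z.2 ^ 2)) := by
    intro v
    have h4 := fderiv_Gz (a0 := a0) (b0 := b0) hΓ h0 v
    rw [(Gz_ev h0).fderiv_eq] at h4
    rw [fderiv_sub_const] at h4
    exact h4
  rw [h3, h3, ← cz_eq_cth hq]
  cases d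
  · simp only [Bool.false_eq_true, if_false, lz_eq_lr] at h2 ⊢
    simpa only [mul_one, mul_zero, add_zero] using h2
  · simp only [if_true] at h2 ⊢
    have e : cz Y V q z * (deriv Γ (lr z) * ((z.1 * 0 + z.2 * 1) / (z.1 ^ 2 + z.2 ^ 2))) +
        fderiv ℝ Φ z (1, 0) = cz Y V q z * (deriv Γ (lz z) * (z.2 / (z.1 ^ 2 + z.2 ^ 2))) -
        -(fderiv ℝ Φ z (1, 0)) := by
      rw [lz_eq_lr]
      ring
    rw [e]
    exact h2

/-- **BG** -/
theorem stmtBG : StmtBG := by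
  intro Y V q Γ T Φ hY hV hq hΓ hΓ1 hΓT hΦ hc
  have ht : Tendsto (fun n : ℕ => (n : ℝ)) atTop atTop := tendsto_natCast_atTop_atTop
  have h1 := nf_BG (l := atTop) (t := fun n : ℕ => (n : ℝ)) ht Y V hq (a0 := 1) (b0 := T)
    (hΓ.of_le (by norm_num)) hΓ1 hΓT (hΦ.of_le (by norm_num)) hc
    (w := fun _ => 0) (T := 0) (Eventually.of_forall fun _ => ⟨by simp, by simp⟩)
  change NF atTop (fun n : ℕ => (n : ℝ)) (fun (n : ℕ) e =>
    Bf Y V q (fun τ => Γ (τ - Real.log n)) e - dr (smp Φ n 0) e) _ at h1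
  obtain ⟨R, hR⟩ := h1.supp
  obtain ⟨L0, hL0⟩ := exists_nat_ge R
  refine ⟨L0, fun L hL l ε hε => ?_⟩
  have hRL : R ≤ L := hL0.trans (by exact_mod_cast hL)
  have hsupp : ∀ᶠ n : ℕ in atTop, ∀ e,
      Bf Y V q (fun τ => Γ (τ - Real.log n)) e - dr (smp Φ n 0) e ≠ 0 → e ∈ Sb L n :=
    hR.mono fun i hi e he => mem_Sb hRL (hi e he)
  have e1 := h1.energy ht (S := fun n => Sb L n) hsupp
  have e2 := h1.osc_tendsto ht l (fun n => Sb L n)
  have hd : ∀ z, dens Y V q (fun w => Γ (lr w)) Φ z =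
      (if true = true then cth Y V q (ar z) * fderiv ℝ (fun w => Γ (lr w)) z (0, 1) +
        fderiv ℝ Φ z (1, 0) else
        cth Y V q (ar z) * fderiv ℝ (fun w => Γ (lr w)) z (1, 0) - fderiv ℝ Φ z (0, 1)) ^ 2 +
      (if false = true then cth Y V q (ar z) * fderiv ℝ (fun w => Γ (lr w)) z (0, 1) +
        fderiv ℝ Φ z (1, 0) else
        cth Y V q (ar z) * fderiv ℝ (fun w => Γ (lr w)) z (1, 0) - fderiv ℝ Φ z (0, 1)) ^ 2 := by
    intro z
    unfold dens
    simp only [if_true, Bool.false_eq_true, if_false]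
    ring
  have f1 := e1.eventually_le_const (show (∫ z, _) < (∫ z, _) + ε by linarith)
  have f2 := e2.eventually_le_const hε
  obtain ⟨n0, h⟩ := (hsupp.and (f1.and f2)).exists_forall_of_atTop
  refine ⟨n0, fun n hn => ?_⟩
  obtain ⟨g1, g2, g3⟩ := h n hn
  refine ⟨fun e he => by
    by_contra h0
    exact he (g1 e h0), ?_, g3⟩
  simp only [hd]
  exact g2

end Vale.Agent.P159.T1.D
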