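import Vale.Agent.P159.T1.D.Stmts
import Vale.Agent.P159.T1.H407.Riemann

/-!
Nice families of lattice fields: bounded by `M / t`, carried by a box of size `R t`, and with
`t * X (floor (t z) + u) → F z` for almost every `z` and every shift `u`. Their energy converges,
their oscillation tends to zero. Gradients of `ψ (f / t)` are nice.
-/

open Filter Topology MeasureTheory

namespace Vale.Agent.P159.T1.D

open Vale.Agent.P159.T1.H407 (fl riemann)

/-- nice families of fields with limit `F` -/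
structure NF {ι : Type*} (l : Filter ι) (t : ι → ℝ) (X : ι → Bnd → ℝ)
    (F : Bool → ℝ × ℝ → ℝ) : Prop where
  bd : ∃ M : ℝ, ∀ᶠ i in l, ∀ e, |X i e| ≤ M / t i
  supp : ∃ R : ℝ, ∀ᶠ i in l, ∀ e, X i e ≠ 0 →
    |(e.1.1 : ℝ)| ≤ R * t i ∧ |(e.1.2 : ℝ)| ≤ R * t i
  lim : ∀ᵐ z : ℝ × ℝ, ∀ (u : Z2) (d : Bool),
    Tendsto (fun i => t i * X i (fl (t i) z + u, d)) l (𝓝 (F d z))

section
variable {ι : Type*} {l : Filter ι} {t : ι → ℝ} {X X' : ι → Bnd → ℝ} {F F' : Bool → ℝ × ℝ → ℝ}

theorem NF.add (ht : Tendsto t l atTop) (h : NF l t X F) (h' : NF l t X' F') :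
    NF l t (fun i e => X i e + X' i e) (fun d z => F d z + F' d z) := by
  obtain ⟨M, hM⟩ := h.bd
  obtain ⟨M', hM'⟩ := h'.bd
  obtain ⟨R, hR⟩ := h.supp
  obtain ⟨R', hR'⟩ := h'.supp
  refine ⟨⟨M + M', ?_⟩, ⟨max R R', ?_⟩, ?_⟩
  · filter_upwards [hM, hM'] with i h1 h2 e
    rw [add_div]
    exact (abs_add_le _ _).trans (add_le_add (h1 e) (h2 e))
  · filter_upwards [hR, hR', ht.eventually (eventually_gt_atTop 0)] with i h1 h2 h3 e he
    by_cases h4 : X i e = 0
    · have h5 : X' i e ≠ 0 := fun h5 => he (by simp only [h4, h5, add_zero])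
      obtain ⟨h6, h7⟩ := h2 e h5
      have h8 : R' * t i ≤ max R R' * t i := mul_le_mul_of_nonneg_right (le_max_right _ _) h3.le
      exact ⟨h6.trans h8, h7.trans h8⟩
    · obtain ⟨h6, h7⟩ := h1 e h4
      have h8 : R * t i ≤ max R R' * t i := mul_le_mul_of_nonneg_right (le_max_left _ _) h3.le
      exact ⟨h6.trans h8, h7.trans h8⟩
  · filter_upwards [h.lim, h'.lim] with z h1 h2 u d
    refine ((h1 u d).add (h2 u d)).congr fun i => ?_
    ring

theorem NF.smul (h : NF l t X F) (c : ℝ) :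
    NF l t (fun i e => c * X i e) (fun d z => c * F d z) := by
  obtain ⟨M, hM⟩ := h.bd
  obtain ⟨R, hR⟩ := h.supp
  refine ⟨⟨|c| * M, ?_⟩, ⟨R, ?_⟩, ?_⟩
  · filter_upwards [hM] with i h1 e
    rw [abs_mul, mul_div_assoc]
    exact mul_le_mul_of_nonneg_left (h1 e) (abs_nonneg c)
  · filter_upwards [hR] with i h1 e he
    exact h1 e fun h2 => he (by rw [h2, mul_zero])
  · filter_upwards [h.lim] with z h1 u d
    refine ((h1 u d).const_mul c).congr fun i => ?_
    ring

theorem NF.sub (ht : Tendsto t l atTop) (h : NF l t X F) (h' : NF l t X' F') :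
    NF l t (fun i e => X i e - X' i e) (fun d z => F d z - F' d z) := by
  have h1 := h.add ht (h'.smul (-1))
  have e1 : (fun i e => X i e + -1 * X' i e) = fun i e => X i e - X' i e := by
    funext i e; ring
  have e2 : (fun d z => F d z + -1 * F' d z) = fun d z => F d z - F' d z := by
    funext i e; ring
  rwa [e1, e2] at h1

theorem NF.zero : NF l t (fun _ _ => 0) (fun _ _ => 0) := by
  refine ⟨⟨0, Eventually.of_forall fun i e => ?_⟩, ⟨0, Eventually.of_forall fun i e he => ?_⟩, ?_⟩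
  · rw [abs_zero, zero_div]
  · exact absurd rfl he
  · refine Eventually.of_forall fun z u d => ?_
    simp only [mul_zero]
    exact tendsto_const_nhds

theorem NF.sum (ht : Tendsto t l atTop) {κ : Type*} (s : Finset κ) {X : κ → ι → Bnd → ℝ}
    {F : κ → Bool → ℝ × ℝ → ℝ} (h : ∀ k ∈ s, NF l t (X k) (F k)) :
    NF l t (fun i e => ∑ k ∈ s, X k i e) (fun d z => ∑ k ∈ s, F k d z) := by
  classical
  induction s using Finset.induction_on with
  | empty => simpa only [Finset.sum_empty] using NF.zero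
  | insert a s ha ih =>
    simp only [Finset.sum_insert ha]
    exact (h a (Finset.mem_insert_self a s)).add ht
      (ih fun k hk => h k (Finset.mem_insert_of_mem hk))

theorem NF.shift (ht : Tendsto t l atTop) (h : NF l t X F) (u : Z2) :
    NF l t (fun i e => X i (sh u e)) F := by
  obtain ⟨M, hM⟩ := h.bd
  obtain ⟨R, hR⟩ := h.supp
  refine ⟨⟨M, ?_⟩, ⟨R + 1, ?_⟩, ?_⟩
  · filter_upwards [hM] with i h1 e
    exact h1 _
  · filter_upwards [hR, ht.eventually (eventually_ge_atTop (max |(u.1 : ℝ)| |(u.2 : ℝ)|))]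
      with i h1 h3 e he
    obtain ⟨h6, h7⟩ := h1 _ he
    have h8 := (le_max_left |(u.1 : ℝ)| |(u.2 : ℝ)|).trans h3
    have h9 := (le_max_right |(u.1 : ℝ)| |(u.2 : ℝ)|).trans h3
    have e1 : (((sh u e).1.1 : ℤ) : ℝ) = (e.1.1 : ℝ) + u.1 := by
      simp only [sh, Prod.fst_add, Int.cast_add]
    have e2 : (((sh u e).1.2 : ℤ) : ℝ) = (e.1.2 : ℝ) + u.2 := by
      simp only [sh, Prod.snd_add, Int.cast_add]
    rw [e1] at h6
    rw [e2] at h7
    constructor
    · have := abs_sub ((e.1.1 : ℝ) + u.1) (u.1 : ℝ)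
      rw [add_sub_cancel_right] at this
      nlinarith
    · have := abs_sub ((e.1.2 : ℝ) + u.2) (u.2 : ℝ)
      rw [add_sub_cancel_right] at this
      nlinarith
  · filter_upwards [h.lim] with z h1 v d
    refine (h1 (v + u) d).congr fun i => ?_
    simp only [sh, add_assoc]

/-- the energy of a nice family converges -/
theorem NF.energy [l.IsCountablyGenerated] (ht : Tendsto t l atTop) (h : NF l t X F)
    {S : ι → Finset Bnd} (hS : ∀ᶠ i in l, ∀ e, X i e ≠ 0 → e ∈ S i) :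
    Tendsto (fun i => ∑ e ∈ S i, X i e ^ 2) l (𝓝 (∫ z, F true z ^ 2 + F false z ^ 2)) := by
  classical
  obtain ⟨M, hM⟩ := h.bd
  obtain ⟨R, hR⟩ := h.supp
  have key := riemann (l := l) (t := t) ht
    (F := fun i P => X i (P, true) ^ 2 + X i (P, false) ^ 2)
    (S := fun i => (S i).image Prod.fst) (M := 2 * M ^ 2) (R := R)
    (f := fun z => F true z ^ 2 + F false z ^ 2) ?_ ?_ ?_ ?_
  · refine key.congr' ?_
    filter_upwards [hS] with i hi
    have h1 : S i ⊆ (S i).image Prod.fst ×ˢ (Finset.univ : Finset Bool) := by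
      intro e he
      exact Finset.mem_product.2 ⟨Finset.mem_image_of_mem _ he, Finset.mem_univ _⟩
    rw [Finset.sum_subset h1 (fun e _ he => by
      have : X i e = 0 := by
        by_contra h0
        exact he (hi e h0)
      rw [this]; ring), Finset.sum_product]
    refine Finset.sum_congr rfl fun P _ => ?_
    rw [Fintype.sum_bool]
  · filter_upwards [hM, ht.eventually (eventually_gt_atTop 0)] with i h1 h3 P
    have h4 : ∀ d, X i (P, d) ^ 2 ≤ (M / t i) ^ 2 := fun d => by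
      have := h1 (P, d)
      exact sq_le_sq' (by linarith [neg_abs_le (X i (P, d))]) ((le_abs_self _).trans this)
    rw [abs_of_nonneg (by positivity)]
    calc X i (P, true) ^ 2 + X i (P, false) ^ 2 ≤ (M / t i) ^ 2 + (M / t i) ^ 2 :=
          add_le_add (h4 _) (h4 _)
      _ = 2 * M ^ 2 / t i ^ 2 := by rw [div_pow]; ring
  · filter_upwards [hS] with i hi P hP
    by_cases h0 : X i (P, true) = 0
    · have h1 : X i (P, false) ≠ 0 := by
        intro h1
        exact hP (by simp only [h0, h1]; ring)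
      exact Finset.mem_image.2 ⟨_, hi _ h1, rfl⟩
    · exact Finset.mem_image.2 ⟨_, hi _ h0, rfl⟩
  · filter_upwards [hR] with i hi P hP
    by_cases h0 : X i (P, true) = 0
    · have h1 : X i (P, false) ≠ 0 := by
        intro h1
        exact hP (by simp only [h0, h1]; ring)
      exact hi _ h1
    · exact hi _ h0
  · filter_upwards [h.lim] with z h1
    have h2 := ((h1 0 true).pow 2).add ((h1 0 false).pow 2)
    refine h2.congr fun i => ?_
    simp only [add_zero]
    ring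

/-- a nice family with limit zero has no energy, on every set of bonds -/
theorem NF.energy_zero [l.IsCountablyGenerated] (ht : Tendsto t l atTop) (h : NF l t X F)
    (hF : ∀ᵐ z, ∀ d, F d z = 0) (S : ι → Finset Bnd) :
    Tendsto (fun i => ∑ e ∈ S i, X i e ^ 2) l (𝓝 0) := by
  classical
  obtain ⟨R, hR⟩ := h.supp
  set S' : ι → Finset Bnd := fun i =>
    (Finset.Icc (-⌈R * t i⌉) ⌈R * t i⌉ ×ˢ Finset.Icc (-⌈R * t i⌉) ⌈R * t i⌉) ×ˢ
      (Finset.univ : Finset Bool) with hS'
  have h1 : ∀ᶠ i in l, ∀ e, X i e ≠ 0 → e ∈ S' i := by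
    filter_upwards [hR] with i hi e he
    obtain ⟨h2, h3⟩ := hi e he
    have h4 : ∀ a : ℤ, |(a : ℝ)| ≤ R * t i → a ∈ Finset.Icc (-⌈R * t i⌉) ⌈R * t i⌉ := by
      intro a ha
      have h5 := Int.le_ceil (R * t i)
      rw [abs_le] at ha
      rw [Finset.mem_Icc]
      constructor
      · have : -((⌈R * t i⌉ : ℤ) : ℝ) ≤ (a : ℝ) := by linarith
        exact_mod_cast this
      · have : (a : ℝ) ≤ ((⌈R * t i⌉ : ℤ) : ℝ) := by linarith
        exact_mod_cast this
    exact Finset.mem_product.2 ⟨Finset.mem_product.2 ⟨h4 _ h2, h4 _ h3⟩, Finset.mem_univ _⟩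
  have h2 := h.energy ht h1
  have h3 : ∫ z, F true z ^ 2 + F false z ^ 2 = 0 := by
    have : (fun z => F true z ^ 2 + F false z ^ 2) =ᵐ[volume] fun _ => (0 : ℝ) := by
      filter_upwards [hF] with z hz
      rw [hz, hz]; ring
    rw [integral_congr_ae this, integral_zero]
  rw [h3] at h2
  refine squeeze_zero' (Eventually.of_forall fun i => Finset.sum_nonneg fun e _ => sq_nonneg _)
    ?_ h2
  filter_upwards [h1] with i hi
  have h4 : ∑ e ∈ S i, X i e ^ 2 = ∑ e ∈ (S i).filter (fun e => e ∈ S' i), X i e ^ 2 := by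
    rw [Finset.sum_filter]
    refine Finset.sum_congr rfl fun e _ => ?_
    split_ifs with h5
    · rfl
    · have : X i e = 0 := by
        by_contra h0
        exact h5 (hi e h0)
      rw [this]; ring
  rw [h4]
  refine Finset.sum_le_sum_of_subset_of_nonneg ?_ fun _ _ _ => sq_nonneg _
  intro e he
  exact (Finset.mem_filter.1 he).2

/-- the oscillation of a nice family tends to zero -/
theorem NF.osc_tendsto [l.IsCountablyGenerated] (ht : Tendsto t l atTop) (h : NF l t X F)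
    (k : ℕ) (S : ι → Finset Bnd) :
    Tendsto (fun i => osc k (S i) (X i)) l (𝓝 0) := by
  unfold osc
  have h1 : ∀ i, ∑ e ∈ S i, ∑ u ∈ Finset.Icc (-(k : ℤ), -(k : ℤ)) ((k : ℤ), (k : ℤ)),
      (X i (sh u e) - X i e) ^ 2 = ∑ u ∈ Finset.Icc (-(k : ℤ), -(k : ℤ)) ((k : ℤ), (k : ℤ)),
      ∑ e ∈ S i, (X i (sh u e) - X i e) ^ 2 := fun i => Finset.sum_comm
  simp only [h1]
  have h2 : (0 : ℝ) = ∑ u ∈ Finset.Icc (-(k : ℤ), -(k : ℤ)) ((k : ℤ), (k : ℤ)), (0 : ℝ) := by
    rw [Finset.sum_const_zero]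
  rw [h2]
  refine tendsto_finsetSum _ fun u _ => ?_
  refine ((h.shift ht u).sub ht h).energy_zero ht ?_ S
  exact Eventually.of_forall fun z d => sub_self _

end

/-! ### gradients of smooth functions -/

lemma flw_tendsto {ι : Type*} {l : Filter ι} {t : ι → ℝ} (ht : Tendsto t l atTop) (z : ℝ × ℝ)
    {w : ι → ℝ × ℝ} {T : ℝ} (hw : ∀ᶠ i in l, |(w i).1| ≤ T ∧ |(w i).2| ≤ T) :
    Tendsto (fun i => ((((fl (t i) z).1 : ℝ) + (w i).1) / t i,
      (((fl (t i) z).2 : ℝ) + (w i).2) / t i)) l (𝓝 z) := by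
  have ht0 : ∀ᶠ i in l, 0 < t i := ht.eventually (eventually_gt_atTop 0)
  have hinv : Tendsto (fun i => (t i)⁻¹) l (𝓝 0) := ht.inv_tendsto_atTop
  have h : ∀ (x : ℝ) (a : ι → ℝ), (∀ᶠ i in l, |a i| ≤ T) →
      Tendsto (fun i => (((⌊t i * x⌋ : ℤ) : ℝ) + a i) / t i) l (𝓝 x) := by
    intro x a ha
    have h1 : Tendsto (fun i => x + (a i - Int.fract (t i * x)) * (t i)⁻¹) l (𝓝 (x + 0)) := by
      refine tendsto_const_nhds.add ?_
      refine bdd_le_mul_tendsto_zero' (T + 1) ?_ hinv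
      filter_upwards [ha] with i hi
      have h2 := Int.fract_nonneg (t i * x)
      have h3 := Int.fract_lt_one (t i * x)
      calc |a i - Int.fract (t i * x)| ≤ |a i| + |Int.fract (t i * x)| := abs_sub _ _
        _ ≤ T + 1 := by rw [abs_of_nonneg h2]; linarith
    rw [add_zero] at h1
    refine h1.congr' ?_
    filter_upwards [ht0] with i hi
    have h4 : ((⌊t i * x⌋ : ℤ) : ℝ) = t i * x - Int.fract (t i * x) := by
      rw [← Int.self_sub_fract]
    rw [h4]
    field_simp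
    ring
  exact (h z.1 _ (hw.mono fun i hi => hi.1)).prodMk_nhds (h z.2 _ (hw.mono fun i hi => hi.2))

/-- difference quotients with moving base points -/
lemma dq {ι : Type*} {l : Filter ι} {t : ι → ℝ} (ht : Tendsto t l atTop)
    {ψ : ℝ × ℝ → ℝ} {ψ' : ℝ × ℝ →L[ℝ] ℝ} {z : ℝ × ℝ} (hψ : HasStrictFDerivAt ψ ψ' z)
    {a b : ι → ℝ × ℝ} (ha : Tendsto a l (𝓝 z)) (hb : Tendsto b l (𝓝 z)) (v : ℝ × ℝ)
    (hab : ∀ᶠ i in l, a i - b i = (t i)⁻¹ • v) :
    Tendsto (fun i => t i * (ψ (a i) - ψ (b i))) l (𝓝 (ψ' v)) := by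
  have ht0 : ∀ᶠ i in l, 0 < t i := ht.eventually (eventually_gt_atTop 0)
  have h1 := (hψ.isLittleO).comp_tendsto (ha.prodMk_nhds hb)
  have h2 : ((fun p : (ℝ × ℝ) × (ℝ × ℝ) => p.1 - p.2) ∘ fun i => (a i, b i)) =O[l]
      fun i => (t i)⁻¹ := by
    refine Asymptotics.IsBigO.of_bound ‖v‖ ?_
    filter_upwards [ht0, hab] with i hi h3
    simp only [Function.comp]
    rw [h3, norm_smul, mul_comm]
  have h4 := (h1.trans_isBigO h2).tendsto_inv_smul_nhds_zero
  have h5 := h4.add (tendsto_const_nhds (x := ψ' v))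
  rw [zero_add] at h5
  refine h5.congr' ?_
  filter_upwards [ht0, hab] with i hi h3
  simp only [Function.comp, inv_inv, smul_eq_mul]
  rw [h3, map_smul, smul_eq_mul]
  have h6 : t i * ((t i)⁻¹ * ψ' v) = ψ' v := by
    rw [← mul_assoc, mul_inv_cancel₀ hi.ne', one_mul]
  linear_combination (-1 : ℝ) * h6

/-- the gradients (as lattice fields) of `ψ ((f + w) / t)` -/
theorem nf_dr {ι : Type*} {l : Filter ι} {t : ι → ℝ} (ht : Tendsto t l atTop)
    {ψ : ℝ × ℝ → ℝ} (hψ : ContDiff ℝ 1 ψ) (hc : HasCompactSupport ψ)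
    {w : ι → ℝ × ℝ} {T : ℝ} (hw : ∀ᶠ i in l, |(w i).1| ≤ T ∧ |(w i).2| ≤ T) :
    NF l t (fun i => dr fun f => ψ (((f.1 : ℝ) + (w i).1) / t i, ((f.2 : ℝ) + (w i).2) / t i))
      (fun d z => if d then -(fderiv ℝ ψ z (1, 0)) else fderiv ℝ ψ z (0, 1)) := by
  have ht0 : ∀ᶠ i in l, 0 < t i := ht.eventually (eventually_gt_atTop 0)
  obtain ⟨C, hC⟩ := hψ.lipschitzWith_of_hasCompactSupport hc (by norm_num)
  obtain ⟨R, hR⟩ := hc.isCompact.isBounded.exists_norm_le
  have hsupp : ∀ p, ψ p ≠ 0 → |p.1| ≤ R ∧ |p.2| ≤ R := by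
    intro p hp
    have h1 := hR p (subset_tsupport _ hp)
    rw [Prod.norm_def] at h1
    exact ⟨(le_max_left _ _).trans h1, (le_max_right _ _).trans h1⟩
  refine ⟨⟨C, ?_⟩, ⟨R + 1, ?_⟩, ?_⟩
  · filter_upwards [ht0] with i hi e
    simp only [dr]
    have h1 := hC.dist_le_mul
      ((((lf e).1 : ℝ) + (w i).1) / t i, (((lf e).2 : ℝ) + (w i).2) / t i)
      ((((rt e).1 : ℝ) + (w i).1) / t i, (((rt e).2 : ℝ) + (w i).2) / t i)
    rw [Real.dist_eq] at h1
    refine h1.trans ?_
    rw [div_eq_mul_inv (C : ℝ)]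
    refine mul_le_mul_of_nonneg_left ?_ C.2
    rw [Prod.dist_eq, Real.dist_eq, Real.dist_eq]
    simp only []
    refine max_le ?_ ?_
    · rw [← sub_div, add_sub_add_right_eq_sub, abs_div, abs_of_pos hi, div_eq_mul_inv]
      refine mul_le_of_le_one_left (inv_pos.2 hi).le ?_
      rcases e with ⟨P, d⟩
      cases d <;> simp [lf, rt]
    · rw [← sub_div, add_sub_add_right_eq_sub, abs_div, abs_of_pos hi, div_eq_mul_inv]
      refine mul_le_of_le_one_left (inv_pos.2 hi).le ?_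
      rcases e with ⟨P, d⟩
      cases d <;> simp [lf, rt]
  · filter_upwards [ht0, hw, ht.eventually (eventually_ge_atTop (T + 1))] with i hi h1 h2 e he
    have h3 : ∀ g : Z2, |((g.1 : ℝ) - e.1.1)| ≤ 1 → |((g.2 : ℝ) - e.1.2)| ≤ 1 →
        ψ (((g.1 : ℝ) + (w i).1) / t i, ((g.2 : ℝ) + (w i).2) / t i) ≠ 0 →
        |(e.1.1 : ℝ)| ≤ (R + 1) * t i ∧ |(e.1.2 : ℝ)| ≤ (R + 1) * t i := by
      intro g hg1 hg2 hg
      obtain ⟨h4, h5⟩ := hsupp _ hg
      simp only [] at h4 h5
      rw [abs_div, abs_of_pos hi, div_le_iff₀ hi, abs_le] at h4 h5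
      rw [abs_le] at hg1 hg2
      obtain ⟨h6, h7⟩ := h1
      rw [abs_le] at h6 h7
      constructor <;> rw [abs_le] <;> constructor <;> nlinarith
    by_cases h0 : ψ ((((lf e).1 : ℝ) + (w i).1) / t i, (((lf e).2 : ℝ) + (w i).2) / t i) = 0
    · have h0' : ψ ((((rt e).1 : ℝ) + (w i).1) / t i, (((rt e).2 : ℝ) + (w i).2) / t i) ≠ 0 := by
        intro h0'
        exact he (by simp only [dr, h0, h0', sub_zero])
      refine h3 (rt e) ?_ ?_ h0'
      · rcases e with ⟨P, d⟩
        cases d <;> simp [rt]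
      · rcases e with ⟨P, d⟩
        cases d <;> simp [rt]
    · refine h3 (lf e) ?_ ?_ h0
      · rcases e with ⟨P, d⟩
        cases d <;> simp [lf]
      · rcases e with ⟨P, d⟩
        cases d <;> simp [lf]
  · refine Eventually.of_forall fun z u d => ?_
    have hst : HasStrictFDerivAt ψ (fderiv ℝ ψ z) z :=
      (hψ.contDiffAt (x := z)).hasStrictFDerivAt (by norm_num)
    have hbd : ∀ o : Z2, ∀ᶠ i in l, |((u.1 + o.1 : ℤ) : ℝ) + (w i).1| ≤
        |((u.1 + o.1 : ℤ) : ℝ)| + |((u.2 + o.2 : ℤ) : ℝ)| + T ∧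
        |((u.2 + o.2 : ℤ) : ℝ) + (w i).2| ≤
        |((u.1 + o.1 : ℤ) : ℝ)| + |((u.2 + o.2 : ℤ) : ℝ)| + T := by
      intro o
      filter_upwards [hw] with i hi
      constructor
      · have := abs_add_le (((u.1 + o.1 : ℤ) : ℝ)) (w i).1
        have := abs_nonneg (((u.2 + o.2 : ℤ) : ℝ))
        linarith [hi.1]
      · have := abs_add_le (((u.2 + o.2 : ℤ) : ℝ)) (w i).2
        have := abs_nonneg (((u.1 + o.1 : ℤ) : ℝ))
        linarith [hi.2]
    have hpt : ∀ o : Z2, Tendsto (fun i => (((((fl (t i) z + u + o).1 : ℤ) : ℝ) + (w i).1) / t i,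
        ((((fl (t i) z + u + o).2 : ℤ) : ℝ) + (w i).2) / t i)) l (𝓝 z) := by
      intro o
      have h1 := flw_tendsto (l := l) ht z
        (w := fun i => (((u.1 + o.1 : ℤ) : ℝ) + (w i).1, ((u.2 + o.2 : ℤ) : ℝ) + (w i).2))
        (hbd o)
      refine h1.congr fun i => ?_
      simp only [Prod.fst_add, Prod.snd_add, Int.cast_add]
      congr 1 <;> ring_nf
    cases d
    · have h1 := dq ht hst (hpt 0) (hpt (0, -1)) (0, 1) ?_
      · refine h1.congr fun i => ?_
        simp only [dr, lf, rt, Bool.false_eq_true, if_false, add_zero, Prod.fst_add, Prod.snd_add,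
          Int.cast_add, Int.cast_sub, Int.cast_one, Int.cast_neg]
        congr 3
      · filter_upwards [ht0] with i hi
        ext
        · simp
        · simp only [Prod.snd_sub, Prod.snd_add, Prod.smul_snd, smul_eq_mul, Int.cast_add,
            Prod.snd_zero, Int.cast_zero, Int.cast_neg, Int.cast_one]
          field_simp
          ring
    · have h1 := dq ht hst (hpt (-1, 0)) (hpt 0) (-1, 0) ?_
      · have h2 : fderiv ℝ ψ z (-1, 0) = -(fderiv ℝ ψ z (1, 0)) := by
          rw [← map_neg]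
          congr 1
          ext <;> simp
        simp only [if_true]
        rw [h2] at h1
        refine h1.congr fun i => ?_
        simp only [dr, lf, rt, if_true, add_zero, Prod.fst_add, Prod.snd_add,
          Int.cast_add, Int.cast_sub, Int.cast_one, Int.cast_neg]
        congr 3
      · filter_upwards [ht0] with i hi
        ext
        · simp only [Prod.fst_sub, Prod.fst_add, Prod.smul_fst, smul_eq_mul, Int.cast_add,
            Prod.fst_zero, Int.cast_zero, Int.cast_neg, Int.cast_one]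
          field_simp
          ring
        · simp

end Vale.Agent.P159.T1.D
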