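import Vale.Agent.P159.T1.H934.CoverDefs
import Vale.Agent.P159.T1.D.H226.Lat

/-!
`StmtLat`: lattice samples of a smooth function.
-/

open Filter Topology MeasureTheory

namespace Vale.Agent.P159.T1.D

/-- the filter `n → ∞`, uniformly in a set of parameters which may depend on `n` -/
def unif {κ : Type*} (A : Set (ℕ × κ)) : Filter (ℕ × κ) := (atTop.comap Prod.fst) ⊓ 𝓟 A

instance unif_cg {κ : Type*} (A : Set (ℕ × κ)) : (unif A).IsCountablyGenerated := by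
  unfold unif
  infer_instance

lemma unif_tendsto {κ : Type*} (A : Set (ℕ × κ)) :
    Tendsto (fun i : ℕ × κ => (i.1 : ℝ)) (unif A) atTop :=
  tendsto_natCast_atTop_atTop.comp (tendsto_comap.mono_left inf_le_left)

lemma unif_eventually {κ : Type*} {A : Set (ℕ × κ)} {P : ℕ × κ → Prop} :
    (∀ᶠ i in unif A, P i) ↔ ∃ n0 : ℕ, ∀ n ≥ n0, ∀ k : κ, (n, k) ∈ A → P (n, k) := by
  have h := ((atTop_basis (α := ℕ)).comap (Prod.fst : ℕ × κ → ℕ)).inf_principal A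
  rw [unif, h.eventually_iff]
  constructor
  · rintro ⟨n0, -, h1⟩
    exact ⟨n0, fun n hn k hk => h1 ⟨hn, hk⟩⟩
  · rintro ⟨n0, h1⟩
    exact ⟨n0, trivial, fun i hi => h1 i.1 hi.1 i.2 hi.2⟩

lemma unif_mem {κ : Type*} (A : Set (ℕ × κ)) : ∀ᶠ i in unif A, i ∈ A :=
  mem_inf_of_right (mem_principal_self A)

lemma mem_Sb {L n : ℕ} {R : ℝ} (hR : R ≤ L) {e : Bnd}
    (h : |(e.1.1 : ℝ)| ≤ R * n ∧ |(e.1.2 : ℝ)| ≤ R * n) : e ∈ Sb L n := by
  have h1 : R * n ≤ ((L * n : ℕ) : ℝ) := by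
    rw [Nat.cast_mul]
    exact mul_le_mul_of_nonneg_right hR (Nat.cast_nonneg n)
  have h2 : ∀ a : ℤ, |(a : ℝ)| ≤ R * n →
      a ∈ Finset.Icc (-((L * n : ℕ) : ℤ)) ((L * n : ℕ) : ℤ) := by
    intro a ha
    have h3 := abs_le.1 (ha.trans h1)
    rw [Finset.mem_Icc]
    constructor
    · have := h3.1
      exact_mod_cast this
    · have := h3.2
      exact_mod_cast this
  exact Finset.mem_product.2 ⟨Finset.mem_product.2 ⟨h2 _ h.1, h2 _ h.2⟩, Finset.mem_univ _⟩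

lemma nf_smp {κ : Type*} {A : Set (ℕ × κ)} {ψ : ℝ × ℝ → ℝ} (hψ : ContDiff ℝ 1 ψ)
    (hc : HasCompactSupport ψ) {w : ℕ × κ → ℝ × ℝ} {T : ℝ}
    (hw : ∀ i ∈ A, |(w i).1| ≤ T ∧ |(w i).2| ≤ T) :
    NF (unif A) (fun i => (i.1 : ℝ)) (fun i => dr (smp ψ i.1 (w i)))
      (fun d z => if d then -(fderiv ℝ ψ z (1, 0)) else fderiv ℝ ψ z (0, 1)) :=
  nf_dr (unif_tendsto A) hψ hc ((unif_mem A).mono hw)

/-- **lattice samples of a smooth function** -/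
theorem stmtLat : StmtLat := by
  intro ψ hψ hc T
  have hψ1 : ContDiff ℝ 1 ψ := hψ.of_le (by norm_num)
  set A : Set (ℕ × (ℝ × ℝ)) := {i | |i.2.1| ≤ T ∧ |i.2.2| ≤ T} with hA
  have h1 := nf_smp (A := A) hψ1 hc (w := fun i => i.2) (T := T) fun i hi => hi
  have h2 := nf_smp (A := A) hψ1 hc (w := fun _ => 0) (T := 0) fun i hi => by simp
  have ht := unif_tendsto A
  obtain ⟨R, hR⟩ := h1.supp
  obtain ⟨L0, hL0⟩ := exists_nat_ge R
  refine ⟨L0, fun L hL l ε hε => ?_⟩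
  have hRL : R ≤ L := hL0.trans (by exact_mod_cast hL)
  have hsupp : ∀ᶠ i in unif A, ∀ e, dr (smp ψ i.1 i.2) e ≠ 0 → e ∈ Sb L i.1 :=
    hR.mono fun i hi e he => mem_Sb hRL (hi e he)
  have e1 := h1.energy ht (S := fun i => Sb L i.1) hsupp
  have e2 := h1.osc_tendsto ht l (fun i => Sb L i.1)
  have e3 := (h1.sub ht h2).energy_zero ht (Eventually.of_forall fun z d => sub_self _)
    (fun i => Sb L i.1)
  have hDir : (∫ z, (if true = true then -(fderiv ℝ ψ z (1, 0)) else fderiv ℝ ψ z (0, 1)) ^ 2 +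
      (if false = true then -(fderiv ℝ ψ z (1, 0)) else fderiv ℝ ψ z (0, 1)) ^ 2) = Dir ψ := by
    unfold Dir
    congr 1
    funext z
    simp
  rw [hDir] at e1
  have f1 : ∀ᶠ i in unif A, |∑ e ∈ Sb L i.1, dr (smp ψ i.1 i.2) e ^ 2 - Dir ψ| ≤ ε := by
    have := (Metric.tendsto_nhds.1 e1) ε hε
    exact this.mono fun i hi => (Real.dist_eq _ _ ▸ hi).le
  have f2 : ∀ᶠ i in unif A, osc l (Sb L i.1) (dr (smp ψ i.1 i.2)) ≤ ε :=
    e2.eventually_le_const hε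
  have f3 : ∀ᶠ i in unif A,
      ∑ e ∈ Sb L i.1, (dr (smp ψ i.1 i.2) e - dr (smp ψ i.1 0) e) ^ 2 ≤ ε :=
    e3.eventually_le_const hε
  have hall := hsupp.and (f1.and (f2.and f3))
  rw [unif_eventually] at hall
  obtain ⟨n0, h⟩ := hall
  refine ⟨n0, fun n hn t ht1 ht2 => ?_⟩
  obtain ⟨g1, g2, g3, g4⟩ := h n hn t ⟨ht1, ht2⟩
  exact ⟨fun e he => by
    by_contra h0
    exact he (g1 e h0), g2, g3, g4⟩

end Vale.Agent.P159.T1.D
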