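import Vale.Agent.P159.T1.D.H226.Lat2
import Vale.Agent.P159.T1.D.H407.Tilt

/-!
The tilt field at one scale is a nice family of fields.
-/

open Filter Topology MeasureTheory

namespace Vale.Agent.P159.T1.D

open Vale.Agent.P159.T1.H407 (fl riemann)

section
variable {ι : Type*} {l : Filter ι} {t : ι → ℝ} {X : ι → Bnd → ℝ} {F : Bool → ℝ × ℝ → ℝ}

theorem NF.congr (h : NF l t X F) {X' : ι → Bnd → ℝ} (h' : ∀ᶠ i in l, X i = X' i) :
    NF l t X' F := by
  obtain ⟨M, hM⟩ := h.bd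
  obtain ⟨R, hR⟩ := h.supp
  refine ⟨⟨M, ?_⟩, ⟨R, ?_⟩, ?_⟩
  · filter_upwards [hM, h'] with i h1 h2
    rwa [← h2]
  · filter_upwards [hR, h'] with i h1 h2
    rwa [← h2]
  · filter_upwards [h.lim] with z h1 u d
    refine (h1 u d).congr' ?_
    filter_upwards [h'] with i h2
    rw [h2]

/-- rotation of the bonds by a quarter turn -/
theorem NF.rot (ht : Tendsto t l atTop) (h : NF l t X F) :
    NF l t (fun i e => if e.2 then X i (e.1 + (0, 1), false) else -X i (e.1 + (1, 0), true))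
      (fun d z => if d then F false z else -F true z) := by
  obtain ⟨M, hM⟩ := h.bd
  obtain ⟨R, hR⟩ := h.supp
  refine ⟨⟨M, ?_⟩, ⟨R + 1, ?_⟩, ?_⟩
  · filter_upwards [hM] with i h1 e
    split_ifs
    · exact h1 _
    · rw [abs_neg]
      exact h1 _
  · filter_upwards [hR, ht.eventually (eventually_ge_atTop 1)] with i h1 h3 e he
    have key : ∀ (v : Z2) (d : Bool), |(v.1 : ℝ)| ≤ 1 → |(v.2 : ℝ)| ≤ 1 → X i (e.1 + v, d) ≠ 0 →
        |(e.1.1 : ℝ)| ≤ (R + 1) * t i ∧ |(e.1.2 : ℝ)| ≤ (R + 1) * t i := by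
      intro v d hv1 hv2 h0
      obtain ⟨h6, h7⟩ := h1 _ h0
      simp only [Prod.fst_add, Prod.snd_add, Int.cast_add] at h6 h7
      rw [abs_le] at h6 h7 hv1 hv2
      constructor <;> rw [abs_le] <;> constructor <;> nlinarith
    split_ifs at he with hd
    · exact key (0, 1) false (by simp) (by simp) he
    · exact key (1, 0) true (by simp) (by simp) (fun h0 => he (by rw [h0, neg_zero]))
  · filter_upwards [h.lim] with z h1 u d
    cases d
    · simp only [Bool.false_eq_true, if_false]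
      refine (h1 (u + (1, 0)) true).neg.congr fun i => ?_
      rw [mul_neg, ← add_assoc]
    · simp only [if_true]
      refine (h1 (u + (0, 1)) false).congr fun i => ?_
      rw [← add_assoc]

/-- multiplication by a bounded coefficient -/
theorem NF.mul (h : NF l t X F) {a : ι → Bnd → ℝ} {c : ℝ × ℝ → ℝ}
    {M0 : ℝ} (ha : ∀ i e, |a i e| ≤ M0)
    (hl : ∀ᵐ z : ℝ × ℝ, ∀ (u : Z2) (d : Bool),
      Tendsto (fun i => a i (fl (t i) z + u, d)) l (𝓝 (c z))) :
    NF l t (fun i e => a i e * X i e) (fun d z => c z * F d z) := by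
  obtain ⟨M, hM⟩ := h.bd
  obtain ⟨R, hR⟩ := h.supp
  refine ⟨⟨M0 * M, ?_⟩, ⟨R, ?_⟩, ?_⟩
  · filter_upwards [hM] with i h1 e
    rw [abs_mul, mul_div_assoc]
    exact mul_le_mul (ha i e) (h1 e) (abs_nonneg _) ((abs_nonneg _).trans (ha i e))
  · filter_upwards [hR] with i h1 e he
    exact h1 e fun h2 => he (by rw [h2, mul_zero])
  · filter_upwards [h.lim, hl] with z h1 h2 u d
    refine ((h2 u d).mul (h1 u d)).congr fun i => ?_
    ring

end

/-- the gradients (along the bonds) of `ψ ((P + w) / t)` -/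
theorem nf_gs {ι : Type*} {l : Filter ι} {t : ι → ℝ} (ht : Tendsto t l atTop)
    {ψ : ℝ × ℝ → ℝ} (hψ : ContDiff ℝ 1 ψ) (hc : HasCompactSupport ψ)
    {w : ι → ℝ × ℝ} {T : ℝ} (hw : ∀ᶠ i in l, |(w i).1| ≤ T ∧ |(w i).2| ≤ T) :
    NF l t (fun i => gs fun f => ψ (((f.1 : ℝ) + (w i).1) / t i, ((f.2 : ℝ) + (w i).2) / t i))
      (fun d z => if d then fderiv ℝ ψ z (0, 1) else fderiv ℝ ψ z (1, 0)) := by
  have h1 := (nf_dr ht hψ hc hw).rot ht
  have e1 : (fun (d : Bool) (z : ℝ × ℝ) => if d then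
      (if false = true then -(fderiv ℝ ψ z (1, 0)) else fderiv ℝ ψ z (0, 1))
      else -(if true = true then -(fderiv ℝ ψ z (1, 0)) else fderiv ℝ ψ z (0, 1))) =
      fun d z => if d then fderiv ℝ ψ z (0, 1) else fderiv ℝ ψ z (1, 0) := by
    funext d z
    cases d <;> simp
  rw [e1] at h1
  refine h1.congr (Eventually.of_forall fun i => ?_)
  funext e
  rcases e with ⟨P, d⟩
  cases d
  · simp only [Bool.false_eq_true, if_false, dr, lf, rt, if_true, gs, bt, bs, Prod.fst_add,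
      Prod.snd_add, add_sub_cancel_right, add_zero]
    ring
  · simp only [if_true, dr, lf, rt, Bool.false_eq_true, if_false, gs, bt, bs, Prod.fst_add,
      Prod.snd_add, add_sub_cancel_right, add_zero]

/-! ### the coefficient of the tilt -/

open Classical in
/-- the limit of the coefficient -/
noncomputable def cz (Y V : ℝ) (q : ℕ) (z : ℝ × ℝ) : ℝ :=
  if z.2 < 0 ∧ (q : ℝ) * (-z.2) < -z.1 then k2 Y V q else k1 Y V q

lemma cf_abs_le (Y V : ℝ) (q : ℕ) (e : Bnd) : |cf Y V q e| ≤ |k1 Y V q| + |k2 Y V q| := by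
  unfold cf
  split_ifs
  · exact le_add_of_nonneg_left (abs_nonneg _)
  · exact le_add_of_nonneg_right (abs_nonneg _)

lemma cone_ev {ι : Type*} {l : Filter ι} {t : ι → ℝ} (ht : Tendsto t l atTop) {q : ℕ}
    {z : ℝ × ℝ} (h1 : z.2 < 0) (h2 : (q : ℝ) * (-z.2) < -z.1) (v : Z2) :
    ∀ᶠ i in l, fl (t i) z + v ∈ cone q := by
  have ht0 : ∀ᶠ i in l, 0 < t i := ht.eventually (eventually_gt_atTop 0)
  have h3 := flw_tendsto ht z (w := fun _ => ((v.1 : ℝ), (v.2 : ℝ)))
    (T := |(v.1 : ℝ)| + |(v.2 : ℝ)|) (Eventually.of_forall fun i =>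
      ⟨le_add_of_nonneg_right (abs_nonneg _), le_add_of_nonneg_left (abs_nonneg _)⟩)
  have h4 := (continuous_fst.tendsto z).comp h3
  have h5 := (continuous_snd.tendsto z).comp h3
  simp only [Function.comp_def] at h4 h5
  have h6 : ∀ᶠ i in l, (((fl (t i) z).2 : ℝ) + v.2) / t i < z.2 / 2 :=
    h5.eventually_lt_const (by linarith)
  have h7 : Tendsto (fun i => (q : ℝ) * (-((((fl (t i) z).2 : ℝ) + v.2) / t i)) +
      (((fl (t i) z).1 : ℝ) + v.1) / t i) l (𝓝 ((q : ℝ) * (-z.2) + z.1)) :=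
    (h5.neg.const_mul _).add h4
  have h8 := h7.eventually_lt_const (show (q : ℝ) * (-z.2) + z.1 < 0 by linarith)
  have h9 : ∀ᶠ i in l, t i ≥ 4 / (-z.2) := ht.eventually (eventually_ge_atTop _)
  filter_upwards [ht0, h6, h8, h9] with i g0 g1 g2 g3
  change (fl (t i) z + v).2 ≤ -2 ∧ (q : ℤ) * (-1 - (fl (t i) z + v).2) ≤ -(fl (t i) z + v).1
  simp only [Prod.fst_add, Prod.snd_add]
  rw [div_lt_iff₀ g0] at g1
  have g4 : 4 ≤ t i * (-z.2) := by
    rwa [ge_iff_le, div_le_iff₀ (by linarith)] at g3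
  constructor
  · have : ((fl (t i) z).2 : ℝ) + v.2 ≤ -2 := by nlinarith
    exact_mod_cast this
  · have g5 : (q : ℝ) * (-(((fl (t i) z).2 : ℝ) + v.2)) + (((fl (t i) z).1 : ℝ) + v.1) < 0 := by
      have : ((q : ℝ) * (-((((fl (t i) z).2 : ℝ) + v.2) / t i)) +
          (((fl (t i) z).1 : ℝ) + v.1) / t i) * t i < 0 := mul_neg_of_neg_of_pos g2 g0
      have e : ((q : ℝ) * (-((((fl (t i) z).2 : ℝ) + v.2) / t i)) +
          (((fl (t i) z).1 : ℝ) + v.1) / t i) * t i =
          (q : ℝ) * (-(((fl (t i) z).2 : ℝ) + v.2)) + (((fl (t i) z).1 : ℝ) + v.1) := by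
        field_simp
      rwa [e] at this
    have g6 : (q : ℝ) * (-1 - (((fl (t i) z).2 : ℝ) + v.2)) ≤ -(((fl (t i) z).1 : ℝ) + v.1) := by
      have : (0 : ℝ) ≤ q := Nat.cast_nonneg q
      nlinarith
    exact_mod_cast g6

lemma not_cone_ev {ι : Type*} {l : Filter ι} {t : ι → ℝ} (ht : Tendsto t l atTop) {q : ℕ}
    {z : ℝ × ℝ} (h : 0 < z.2 ∨ -z.1 < (q : ℝ) * (-z.2)) (v : Z2) :
    ∀ᶠ i in l, fl (t i) z + v ∉ cone q := by
  have ht0 : ∀ᶠ i in l, 0 < t i := ht.eventually (eventually_gt_atTop 0)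
  have h3 := flw_tendsto ht z (w := fun _ => ((v.1 : ℝ), (v.2 : ℝ)))
    (T := |(v.1 : ℝ)| + |(v.2 : ℝ)|) (Eventually.of_forall fun i =>
      ⟨le_add_of_nonneg_right (abs_nonneg _), le_add_of_nonneg_left (abs_nonneg _)⟩)
  have h4 := (continuous_fst.tendsto z).comp h3
  have h5 := (continuous_snd.tendsto z).comp h3
  simp only [Function.comp_def] at h4 h5
  rcases h with h | h
  · have h6 : ∀ᶠ i in l, 0 < (((fl (t i) z).2 : ℝ) + v.2) / t i :=
      h5.eventually_const_lt h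
    filter_upwards [ht0, h6] with i g0 g1 g2
    have g3 : (fl (t i) z + v).2 ≤ -2 := g2.1
    rw [lt_div_iff₀ g0, zero_mul] at g1
    have g4 : (0 : ℤ) < (fl (t i) z).2 + v.2 := by exact_mod_cast g1
    simp only [Prod.snd_add] at g3
    omega
  · have h7 : Tendsto (fun i => (q : ℝ) * (-((((fl (t i) z).2 : ℝ) + v.2) / t i)) +
        (((fl (t i) z).1 : ℝ) + v.1) / t i) l (𝓝 ((q : ℝ) * (-z.2) + z.1)) :=
      (h5.neg.const_mul _).add h4
    set δ : ℝ := ((q : ℝ) * (-z.2) + z.1) / 2 with hδ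
    have hδ0 : 0 < δ := by rw [hδ]; linarith
    have h8 := h7.eventually_const_lt (show δ < (q : ℝ) * (-z.2) + z.1 by linarith)
    have h9 : ∀ᶠ i in l, t i ≥ ((q : ℝ) + 1) / δ := ht.eventually (eventually_ge_atTop _)
    filter_upwards [ht0, h8, h9] with i g0 g2 g3 g4
    have g5 : (q : ℤ) * (-1 - (fl (t i) z + v).2) ≤ -(fl (t i) z + v).1 := g4.2
    simp only [Prod.fst_add, Prod.snd_add] at g5
    have g6 : (q : ℝ) * (-1 - (((fl (t i) z).2 : ℝ) + v.2)) ≤ -(((fl (t i) z).1 : ℝ) + v.1) := by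
      exact_mod_cast g5
    have g7 : δ * t i < (q : ℝ) * (-(((fl (t i) z).2 : ℝ) + v.2)) +
        (((fl (t i) z).1 : ℝ) + v.1) := by
      have := mul_lt_mul_of_pos_right g2 g0
      have e : ((q : ℝ) * (-((((fl (t i) z).2 : ℝ) + v.2) / t i)) +
          (((fl (t i) z).1 : ℝ) + v.1) / t i) * t i =
          (q : ℝ) * (-(((fl (t i) z).2 : ℝ) + v.2)) + (((fl (t i) z).1 : ℝ) + v.1) := by
        field_simp
      rwa [e] at this
    rw [ge_iff_le, div_le_iff₀ hδ0] at g3
    linarith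

lemma ae_line (q : ℕ) : ∀ᵐ z : ℝ × ℝ, z.2 ≠ 0 ∧ z.1 ≠ (q : ℝ) * z.2 := by
  have h1 : ∀ᵐ z : ℝ × ℝ, z.2 ≠ 0 := by
    have : (volume : Measure (ℝ × ℝ)) {z | z.2 = 0} = 0 := by
      have e : {z : ℝ × ℝ | z.2 = 0} = Set.univ ×ˢ {(0 : ℝ)} := by ext z; simp
      rw [e, Measure.volume_eq_prod, Measure.prod_prod, Real.volume_singleton, mul_zero]
    exact (ae_iff.2 (by simpa using this))
  have h2 : ∀ᵐ z : ℝ × ℝ, z.1 ≠ (q : ℝ) * z.2 := by
    have hm : MeasurableSet {z : ℝ × ℝ | z.1 = (q : ℝ) * z.2} :=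
      measurableSet_eq_fun measurable_fst (measurable_snd.const_mul _)
    have : (volume : Measure (ℝ × ℝ)) {z | z.1 = (q : ℝ) * z.2} = 0 := by
      rw [Measure.volume_eq_prod, Measure.prod_apply_symm hm]
      refine lintegral_eq_zero_of_ae_eq_zero (Eventually.of_forall fun y => ?_)
      have e : (fun x : ℝ => (x, y)) ⁻¹' {z : ℝ × ℝ | z.1 = (q : ℝ) * z.2} =
          {(q : ℝ) * y} := by ext x; simp
      simp only [e, Real.volume_singleton, Pi.zero_apply]
    exact (ae_iff.2 (by simpa using this))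
  filter_upwards [h1, h2] with z a b
  exact ⟨a, b⟩

lemma cf_lim {ι : Type*} {l : Filter ι} {t : ι → ℝ} (ht : Tendsto t l atTop) (Y V : ℝ) (q : ℕ) :
    ∀ᵐ z : ℝ × ℝ, ∀ (u : Z2) (d : Bool),
      Tendsto (fun i => cf Y V q (fl (t i) z + u, d)) l (𝓝 (cz Y V q z)) := by
  filter_upwards [ae_line q] with z hz u d
  refine tendsto_const_nhds.congr' ?_
  by_cases hc : z.2 < 0 ∧ (q : ℝ) * (-z.2) < -z.1
  · cases d
    · filter_upwards [cone_ev ht hc.1 hc.2 u, cone_ev ht hc.1 hc.2 (u + (0, -1))] with i h1 h2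
      unfold cz cf
      rw [if_pos hc, if_pos (Or.inl ?_)]
      · rfl
      · simp only [rt, lf, Bool.false_eq_true, if_false]
        rw [← add_assoc] at h2
        refine ⟨?_, h1⟩
        convert h2 using 1
        ext
        · simp
        · simp [sub_eq_add_neg]
    · filter_upwards [cone_ev ht hc.1 hc.2 u, cone_ev ht hc.1 hc.2 (u + (-1, 0))] with i h1 h2
      unfold cz cf
      rw [if_pos hc, if_pos (Or.inl ?_)]
      · rfl
      · simp only [rt, lf, if_true]
        rw [← add_assoc] at h2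
        refine ⟨h1, ?_⟩
        convert h2 using 1
        ext
        · simp [sub_eq_add_neg]
        · simp
  · have hc' : 0 < z.2 ∨ -z.1 < (q : ℝ) * (-z.2) := by
      by_cases h0 : z.2 < 0
      · right
        have h1 : ¬ ((q : ℝ) * (-z.2) < -z.1) := fun h => hc ⟨h0, h⟩
        push Not at h1
        refine lt_of_le_of_ne h1 fun h => hz.2 ?_
        linarith
      · left
        push Not at h0
        exact lt_of_le_of_ne h0 (Ne.symm hz.1)
    cases d
    · filter_upwards [not_cone_ev ht hc' (u + (0, -1))] with i h2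
      unfold cz cf
      rw [if_neg hc, if_neg ?_]
      · rfl
      · have e : rt (fl (t i) z + u, false) = fl (t i) z + (u + (0, -1)) := by
          ext
          · simp [rt]
          · simp [rt, sub_eq_add_neg, add_assoc]
        have h3 : rt (fl (t i) z + u, false) ∉ cone q := by
          rw [e]
          exact h2
        tauto
    · filter_upwards [not_cone_ev ht hc' u] with i h2
      unfold cz cf
      rw [if_neg hc, if_neg ?_]
      · rfl
      · have h3 : rt (fl (t i) z + u, true) ∉ cone q := by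
          simpa only [rt, if_true] using h2
        tauto

end Vale.Agent.P159.T1.D
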